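import Vale.Agent.Lib.P062.QbF

namespace Vale.Agent.Results.P062.MakerWins

open Vale.Agent.P062

/-- Maker has a winning strategy in the achievement game for Snaky on the empty board, without
handicap. -/
theorem result : ∃ σ : List Cell → Cell, IsWinningStrategy σ :=
  final_sound Qb.rootsOK (by decide +kernel)

end Vale.Agent.Results.P062.MakerWins
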