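import Vale.Agent.Lib.P062.QaF
import Vale.Agent.Lib.P062.Partial

namespace Vale.Agent.Results.P062.NotAdjacent

open Vale.Agent.P062

/-- Maker has a strategy for Snaky on the empty board that wins against every Breaker play whose
first reply does not share an edge with Maker's first cell. -/
theorem result : ∃ σ : List Cell → Cell, ∀ b : ℕ → Cell,
    (∀ k, b k ∉ makerCells σ b (k + 1) ∧ b k ∉ breakerCells b k) →
    ¬ Adj (makerMove σ b 0) (b 0) →
    ∃ n, (∀ k < n, makerMove σ b k ∉ makerCells σ b k ∧ makerMove σ b k ∉ breakerCells b k) ∧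
      ∃ C, IsCopy C ∧ C ⊆ makerCells σ b n :=
  partial_sound Qa.rootsOK (by decide +kernel)

end Vale.Agent.Results.P062.NotAdjacent
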